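import Mathlib

/-!
# P097 / block (T) in straight coordinates: chains of windows

Windows `(y, x, ρ)`, `y x` real, `ρ > 0`; axis point `pt y x ρ = (y - iρ, x + iρ)`; piece `Pc`.
-/

set_option linter.all false

open Complex Metric Set Filter Topology

namespace Vale.Agent.P097.H845.St

/-- axis point of the window `(y, x, h)` -/
noncomputable def pt (y x h : ℝ) : ℂ × ℂ := ((y : ℂ) - (h : ℂ) * I, (x : ℂ) + (h : ℂ) * I)

@[simp] theorem pt_fst_re (y x h : ℝ) : (pt y x h).1.re = y := by simp [pt]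
@[simp] theorem pt_fst_im (y x h : ℝ) : (pt y x h).1.im = -h := by simp [pt]
@[simp] theorem pt_snd_re (y x h : ℝ) : (pt y x h).2.re = x := by simp [pt]
@[simp] theorem pt_snd_im (y x h : ℝ) : (pt y x h).2.im = h := by simp [pt]

/-- the piece of the window `(y, x, ρ)` -/
def Pc (X om y x ρ : ℝ) : Set (ℂ × ℂ) :=
  {z | |z.1.re - y| ≤ X * ρ ∧ |z.2.re - x| ≤ X * ρ ∧ om * ρ ≤ -z.1.im ∧ -z.1.im ≤ X * ρ ∧
    om * ρ ≤ z.2.im ∧ z.2.im ≤ X * ρ}

theorem pt_mem_Pc {X om y x ρ y' x' h : ℝ} (h1 : |y' - y| ≤ X * ρ) (h2 : |x' - x| ≤ X * ρ)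
    (h3 : om * ρ ≤ h) (h4 : h ≤ X * ρ) : pt y' x' h ∈ Pc X om y x ρ := by
  refine ⟨?_, ?_, ?_, ?_, ?_, ?_⟩ <;> simpa

theorem pt_self {X om y x ρ : ℝ} (hX : 2 ≤ X) (hom : om ≤ 1 / 2) (hρ : 0 < ρ) :
    pt y x ρ ∈ Pc X om y x ρ := by
  have h1 : 2 * ρ ≤ X * ρ := mul_le_mul_of_nonneg_right hX hρ.le
  have h2 : om * ρ ≤ 1 / 2 * ρ := mul_le_mul_of_nonneg_right hom hρ.le
  refine pt_mem_Pc ?_ ?_ ?_ ?_
  · rw [sub_self, abs_zero]; linarith
  · rw [sub_self, abs_zero]; linarith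
  · linarith
  · linarith

theorem pt_double {X om y x ρ : ℝ} (hX : 2 ≤ X) (hom : om ≤ 1 / 2) (hρ : 0 < ρ) :
    pt y x (2 * ρ) ∈ Pc X om y x ρ := by
  have h1 : 2 * ρ ≤ X * ρ := mul_le_mul_of_nonneg_right hX hρ.le
  have h2 : om * ρ ≤ 1 / 2 * ρ := mul_le_mul_of_nonneg_right hom hρ.le
  refine pt_mem_Pc ?_ ?_ ?_ ?_
  · rw [sub_self, abs_zero]; linarith
  · rw [sub_self, abs_zero]; linarith
  · linarith
  · linarith

theorem sqrt_two_pow (i : ℕ) : Real.sqrt ((2 : ℝ) ^ i) = Real.sqrt 2 ^ i := by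
  have : (2 : ℝ) ^ i = Real.sqrt 2 ^ i * Real.sqrt 2 ^ i := by
    rw [← mul_pow, Real.mul_self_sqrt (by norm_num)]
  rw [this, Real.sqrt_mul_self (by positivity)]

theorem sq2_lo : (1.414 : ℝ) ≤ Real.sqrt 2 := by
  rw [Real.le_sqrt (by norm_num) (by norm_num)]; norm_num

theorem sq2_hi : Real.sqrt 2 ≤ (1.415 : ℝ) := by
  rw [Real.sqrt_le_left (by norm_num)]; norm_num

theorem geo_up (n : ℕ) : ∑ i ∈ Finset.range n, Real.sqrt 2 ^ i ≤ 5 / 2 * Real.sqrt 2 ^ n := by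
  induction n with
  | zero => norm_num
  | succ n ih =>
    rw [Finset.sum_range_succ, pow_succ]
    have h1 := sq2_lo
    have h2 : 0 < Real.sqrt 2 ^ n := by positivity
    have h3 : 1.414 * Real.sqrt 2 ^ n ≤ Real.sqrt 2 ^ n * Real.sqrt 2 := by
      rw [mul_comm]; exact mul_le_mul_of_nonneg_left h1 h2.le
    linarith

theorem geo_down (n : ℕ) : ∑ i ∈ Finset.range n, ((1 : ℝ) / 4) ^ i ≤ 4 / 3 := by
  have : ∑ i ∈ Finset.range n, ((1 : ℝ) / 4) ^ i ≤ 4 / 3 * (1 - (1 / 4) ^ n) := by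
    induction n with
    | zero => simp
    | succ n ih =>
      rw [Finset.sum_range_succ, pow_succ]
      have h2 : 0 < ((1 : ℝ) / 4) ^ n := by positivity
      linarith
  have h2 : 0 < ((1 : ℝ) / 4) ^ n := by positivity
  linarith

/-- the first dyadic multiple of `h` above `R` -/
theorem exists_top {h R : ℝ} (hh : 0 < h) (hR : h ≤ R) :
    ∃ n : ℕ, R ≤ 2 ^ n * h ∧ 2 ^ n * h < 2 * R ∧ ∀ i < n, 2 ^ i * h < R := by
  have hex : ∃ n : ℕ, R ≤ 2 ^ n * h := by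
    obtain ⟨n, hn⟩ := pow_unbounded_of_one_lt (R / h) (one_lt_two (α := ℝ))
    refine ⟨n, ?_⟩
    rw [div_lt_iff₀ hh] at hn
    exact hn.le
  classical
  refine ⟨Nat.find hex, Nat.find_spec hex, ?_, fun i hi => not_le.1 (Nat.find_min hex hi)⟩
  rcases Nat.eq_zero_or_pos (Nat.find hex) with h0 | h0
  · rw [h0, pow_zero, one_mul]
    linarith
  · have h1 : 2 ^ (Nat.find hex - 1) * h < R :=
      not_le.1 (Nat.find_min hex (Nat.sub_lt h0 one_pos))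
    have h2 : (2 : ℝ) ^ (Nat.find hex) = 2 * 2 ^ (Nat.find hex - 1) := by
      rw [← pow_succ', Nat.sub_add_cancel h0]
    rw [h2, mul_assoc]
    linarith

section

variable {E : Type*} [PseudoMetricSpace E] {L : ℂ × ℂ → E} {X om : ℝ} {Ev : ℝ → ℝ → ℝ → ℝ}

/-- the size function controls the oscillation of `L` on the pieces, as long as it is `< 1` -/
def Osc (L : ℂ × ℂ → E) (X om : ℝ) (Ev : ℝ → ℝ → ℝ → ℝ) : Prop :=
  ∀ y x ρ : ℝ, |y| ≤ 1 / 2 → |x| ≤ 1 / 2 → 0 < ρ → ρ ≤ 1 / 4 → Ev y x ρ < 1 →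
    ∀ u ∈ Pc X om y x ρ, ∀ v ∈ Pc X om y x ρ, dist (L u) (L v) ≤ Ev y x ρ

/-- (G) at the pick `(y₀, x₀, r₀)` -/
def Gd (Ev : ℝ → ℝ → ℝ → ℝ) (C e y₀ x₀ r₀ : ℝ) : Prop :=
  ∀ y x ρ : ℝ, |y| ≤ 1 / 2 → |x| ≤ 1 / 2 → 0 < ρ → ρ ≤ 1 / 4 →
    Ev y x ρ ≤ C * e * Real.sqrt ((|y - y₀| + |x - x₀| + ρ + r₀) / r₀) *
      ((|y - y₀| + |x - x₀| + ρ + r₀) / ρ) ^ 2

/-- vertical chain over the pick -/
theorem chain_up (hX : 2 ≤ X) (hom : om ≤ 1 / 2) (hO : Osc L X om Ev) {C e y₀ x₀ r₀ : ℝ}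
    (hC : 0 ≤ C) (he : 0 ≤ e) (hy : |y₀| ≤ 1 / 2) (hx : |x₀| ≤ 1 / 2) (hr : 0 < r₀)
    (hG : Gd Ev C e y₀ x₀ r₀) {n : ℕ} (hn : 2 ^ n * r₀ ≤ 1 / 4)
    (hsm : 6 * C * e * Real.sqrt 2 ^ n < 1) :
    (∀ i ≤ n, Ev y₀ x₀ (2 ^ i * r₀) ≤ 6 * C * e * Real.sqrt 2 ^ i) ∧
      dist (L (pt y₀ x₀ r₀)) (L (pt y₀ x₀ (2 ^ n * r₀))) ≤ 15 * C * e * Real.sqrt 2 ^ n := by
  have hpow : ∀ i ≤ n, (2 : ℝ) ^ i * r₀ ≤ 1 / 4 := fun i hi =>
    (mul_le_mul_of_nonneg_right (pow_le_pow_right₀ one_le_two hi) hr.le).trans hn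
  have hE : ∀ i ≤ n, Ev y₀ x₀ (2 ^ i * r₀) ≤ 6 * C * e * Real.sqrt 2 ^ i := by
    intro i hi
    have h2 : (1 : ℝ) ≤ 2 ^ i := one_le_pow₀ one_le_two
    have hp : 0 < (2 : ℝ) ^ i * r₀ := by positivity
    have h1 := hG y₀ x₀ (2 ^ i * r₀) hy hx hp (hpow i hi)
    refine h1.trans ?_
    simp only [sub_self, abs_zero, zero_add]
    have hD : 2 ^ i * r₀ + r₀ ≤ 2 * (2 ^ i * r₀) := by nlinarith
    have e1 : Real.sqrt ((2 ^ i * r₀ + r₀) / r₀) ≤ Real.sqrt 2 * Real.sqrt 2 ^ i := by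
      rw [← sqrt_two_pow i, ← Real.sqrt_mul (by norm_num)]
      refine Real.sqrt_le_sqrt ?_
      rw [div_le_iff₀ hr]; linarith
    have e2 : ((2 ^ i * r₀ + r₀) / (2 ^ i * r₀)) ^ 2 ≤ 4 := by
      have : (2 ^ i * r₀ + r₀) / (2 ^ i * r₀) ≤ 2 := by rw [div_le_iff₀ hp]; exact hD
      have h0 : 0 ≤ (2 ^ i * r₀ + r₀) / (2 ^ i * r₀) := by positivity
      nlinarith
    have hce : 0 ≤ C * e := mul_nonneg hC he
    calc C * e * Real.sqrt ((2 ^ i * r₀ + r₀) / r₀) * ((2 ^ i * r₀ + r₀) / (2 ^ i * r₀)) ^ 2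
        ≤ C * e * (Real.sqrt 2 * Real.sqrt 2 ^ i) * 4 := by
          refine mul_le_mul (mul_le_mul_of_nonneg_left e1 hce) e2 (by positivity) (by positivity)
      _ = C * e * Real.sqrt 2 ^ i * (4 * Real.sqrt 2) := by ring
      _ ≤ C * e * Real.sqrt 2 ^ i * 6 := by
          refine mul_le_mul_of_nonneg_left ?_ (by positivity)
          have := sq2_hi; linarith
      _ = _ := by ring
  refine ⟨hE, ?_⟩
  have hmono : ∀ i ≤ n, 6 * C * e * Real.sqrt 2 ^ i < 1 := by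
    intro i hi
    have h1 : (1 : ℝ) ≤ Real.sqrt 2 := by have := sq2_lo; linarith
    have h2 : Real.sqrt 2 ^ i ≤ Real.sqrt 2 ^ n := pow_le_pow_right₀ h1 hi
    have hce : 0 ≤ 6 * C * e := by positivity
    exact (mul_le_mul_of_nonneg_left h2 hce).trans_lt hsm
  have h1 := dist_le_range_sum_of_dist_le (f := fun i : ℕ => L (pt y₀ x₀ (2 ^ i * r₀))) n
    (d := fun i => 6 * C * e * Real.sqrt 2 ^ i) (by
      intro i hi
      have hp : 0 < (2 : ℝ) ^ i * r₀ := by positivity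
      have hEi := hE i hi.le
      refine (hO y₀ x₀ (2 ^ i * r₀) hy hx hp (hpow i hi.le) (hEi.trans_lt (hmono i hi.le)) _ ?_ _
        ?_).trans hEi
      · exact pt_self hX hom hp
      · rw [pow_succ', mul_assoc]
        exact pt_double hX hom hp)
  have h2 : ∑ i ∈ Finset.range n, 6 * C * e * Real.sqrt 2 ^ i ≤ 15 * C * e * Real.sqrt 2 ^ n := by
    rw [← Finset.mul_sum]
    have := geo_up n
    have hce : 0 ≤ 6 * C * e := by positivity
    calc 6 * C * e * ∑ i ∈ Finset.range n, Real.sqrt 2 ^ i ≤ 6 * C * e * (5 / 2 * Real.sqrt 2 ^ n) :=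
        mul_le_mul_of_nonneg_left this hce
      _ = _ := by ring
  have h3 : dist (L (pt y₀ x₀ (2 ^ 0 * r₀))) (L (pt y₀ x₀ (2 ^ n * r₀))) ≤
      ∑ i ∈ Finset.range n, 6 * C * e * Real.sqrt 2 ^ i := h1
  rw [pow_zero, one_mul] at h3
  exact h3.trans h2

/-- the downward chain over another apex -/
theorem chain_down (hX : 2 ≤ X) (hom : om ≤ 1 / 2) (hO : Osc L X om Ev) {y x h M : ℝ}
    (hM : 0 ≤ M) (hM1 : 6 * M < 1) (hy : |y| ≤ 1 / 2) (hx : |x| ≤ 1 / 2) (hh : 0 < h) {j : ℕ}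
    (hj : ∀ i < j, 2 ^ i * h ≤ 1 / 4) (hE : ∀ i < j, Ev y x (2 ^ i * h) ≤ 6 * M * (1 / 4) ^ i) :
    dist (L (pt y x h)) (L (pt y x (2 ^ j * h))) ≤ 8 * M := by
  have h1 := dist_le_range_sum_of_dist_le (f := fun i : ℕ => L (pt y x (2 ^ i * h))) j
    (d := fun i => 6 * M * (1 / 4) ^ i) (by
      intro i hi
      have hp : 0 < (2 : ℝ) ^ i * h := by positivity
      have hEi := hE i hi
      have h4 : ((1 : ℝ) / 4) ^ i ≤ 1 := pow_le_one₀ (by norm_num) (by norm_num)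
      have h5 : 6 * M * (1 / 4) ^ i ≤ 6 * M * 1 := mul_le_mul_of_nonneg_left h4 (by positivity)
      refine (hO y x (2 ^ i * h) hy hx hp (hj i hi) (by linarith) _ ?_ _ ?_).trans hEi
      · exact pt_self hX hom hp
      · rw [pow_succ', mul_assoc]
        exact pt_double hX hom hp)
  have h3 : dist (L (pt y x (2 ^ 0 * h))) (L (pt y x (2 ^ j * h))) ≤
      ∑ i ∈ Finset.range j, 6 * M * (1 / 4) ^ i := h1
  rw [pow_zero, one_mul, ← Finset.mul_sum] at h3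
  refine h3.trans ?_
  have h6 := geo_down j
  calc 6 * M * ∑ i ∈ Finset.range j, ((1 : ℝ) / 4) ^ i ≤ 6 * M * (4 / 3) :=
      mul_le_mul_of_nonneg_left h6 (by positivity)
    _ = _ := by ring

/-- size bound on the downward chain -/
theorem down_bd {C e y₀ x₀ r₀ : ℝ} (hC : 0 ≤ C) (he : 0 ≤ e) (hr : 0 < r₀)
    (hG : Gd Ev C e y₀ x₀ r₀) {y x h R : ℝ} (hy : |y| ≤ 1 / 2) (hx : |x| ≤ 1 / 2)
    (hh : 0 < h) (hR : |y - y₀| + |x - x₀| + h + r₀ ≤ R) (hR8 : R ≤ 1 / 8) {i : ℕ}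
    (hi : 2 ^ i * h < R) :
    Ev y x (2 ^ i * h) ≤ 6 * (C * e * (Real.sqrt (R / r₀) * (R / h) ^ 2)) * (1 / 4) ^ i := by
  have ha : 0 ≤ |y - y₀| := abs_nonneg _
  have hb : 0 ≤ |x - x₀| := abs_nonneg _
  have hce : 0 ≤ C * e := mul_nonneg hC he
  have hp : 0 < (2 : ℝ) ^ i * h := by positivity
  have h1 := hG y x (2 ^ i * h) hy hx hp (by linarith)
  refine h1.trans ?_
  set D := |y - y₀| + |x - x₀| + 2 ^ i * h + r₀ with hD
  have hD2 : D ≤ 2 * R := by rw [hD]; linarith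
  have hD0 : 0 < D := by rw [hD]; linarith
  set s := Real.sqrt (R / r₀) with hs
  have hs0 : 0 ≤ s := Real.sqrt_nonneg _
  have e1 : Real.sqrt (D / r₀) ≤ Real.sqrt 2 * s := by
    rw [hs, ← Real.sqrt_mul (by norm_num)]
    refine Real.sqrt_le_sqrt ?_
    rw [mul_div_assoc', div_le_div_iff_of_pos_right hr]; exact hD2
  have e2 : (D / (2 ^ i * h)) ^ 2 ≤ 4 * (R / h) ^ 2 * (1 / 4) ^ i := by
    have e3 : D / (2 ^ i * h) ≤ 2 * R / (2 ^ i * h) := by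
      rw [div_le_div_iff_of_pos_right hp]; exact hD2
    have e4 : 0 ≤ D / (2 ^ i * h) := by positivity
    have e5 : (D / (2 ^ i * h)) ^ 2 ≤ (2 * R / (2 ^ i * h)) ^ 2 := pow_le_pow_left₀ e4 e3 2
    refine e5.trans (le_of_eq ?_)
    have e6 : ((1 : ℝ) / 4) ^ i = ((2 : ℝ) ^ i)⁻¹ ^ 2 := by
      rw [← inv_pow, ← pow_mul, mul_comm i 2, pow_mul]
      norm_num
    rw [e6]
    field_simp
    ring
  have hB0 : 0 ≤ s * (R / h) ^ 2 := by positivity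
  calc C * e * Real.sqrt (D / r₀) * (D / (2 ^ i * h)) ^ 2 ≤
      C * e * (Real.sqrt 2 * s) * (4 * (R / h) ^ 2 * (1 / 4) ^ i) :=
        mul_le_mul (mul_le_mul_of_nonneg_left e1 hce) e2 (by positivity) (by positivity)
    _ = C * e * (s * (R / h) ^ 2) * (1 / 4) ^ i * (4 * Real.sqrt 2) := by ring
    _ ≤ C * e * (s * (R / h) ^ 2) * (1 / 4) ^ i * 6 := by
        refine mul_le_mul_of_nonneg_left ?_ (by positivity)
        have := sq2_hi; linarith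
    _ = _ := by ring

/-- **the chain**: up, over, down -/
theorem chain (hX : 2 ≤ X) (hom0 : 0 ≤ om) (hom : om ≤ 1 / 2) (hO : Osc L X om Ev)
    {C e y₀ x₀ r₀ : ℝ} (hC : 0 ≤ C) (he : 0 ≤ e) (hy₀ : |y₀| ≤ 1 / 2) (hx₀ : |x₀| ≤ 1 / 2)
    (hr : 0 < r₀) (hG : Gd Ev C e y₀ x₀ r₀) {y x h R : ℝ} (hy : |y| ≤ 1 / 2) (hx : |x| ≤ 1 / 2)
    (hh : 0 < h) (hR : |y - y₀| + |x - x₀| + h + r₀ ≤ R) (hR8 : R ≤ 1 / 8)
    (hsm : 40 * (C * e * (Real.sqrt (R / r₀) * (R / h) ^ 2)) < 1) :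
    dist (L (pt y₀ x₀ r₀)) (L (pt y x h)) ≤
      40 * (C * e * (Real.sqrt (R / r₀) * (R / h) ^ 2)) := by
  have ha : 0 ≤ |y - y₀| := abs_nonneg _
  have hb : 0 ≤ |x - x₀| := abs_nonneg _
  have hR0 : 0 < R := by linarith
  have hrR : r₀ ≤ R := by linarith
  have hhR : h ≤ R := by linarith
  have hce : 0 ≤ C * e := mul_nonneg hC he
  set s := Real.sqrt (R / r₀) with hs
  have hs1 : 1 ≤ s := by
    rw [hs, Real.one_le_sqrt, le_div_iff₀ hr]; linarith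
  have hRh : 1 ≤ R / h := by rw [le_div_iff₀ hh]; linarith
  have hRh2 : 1 ≤ (R / h) ^ 2 := one_le_pow₀ hRh
  set M := C * e * (s * (R / h) ^ 2) with hM
  have hM0 : 0 ≤ M := by positivity
  -- `C e s ≤ M`
  have hsM : C * e * s ≤ M := by
    have : s * 1 ≤ s * (R / h) ^ 2 := mul_le_mul_of_nonneg_left hRh2 (by linarith)
    rw [hM]
    refine mul_le_mul_of_nonneg_left ?_ hce
    linarith
  have hces : 0 ≤ C * e * s := by positivity
  obtain ⟨n, n1, n2, n3⟩ := exists_top hr hrR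
  obtain ⟨j, j1, j2, j3⟩ := exists_top hh hhR
  -- `√2 ^ n ≤ √2 s`
  have hn : Real.sqrt 2 ^ n ≤ 1.415 * s := by
    have h1 : Real.sqrt 2 ^ n ≤ Real.sqrt 2 * s := by
      rw [← sqrt_two_pow n, hs, ← Real.sqrt_mul (by norm_num)]
      refine Real.sqrt_le_sqrt ?_
      rw [mul_div_assoc', le_div_iff₀ hr]
      exact n2.le
    exact h1.trans (mul_le_mul_of_nonneg_right sq2_hi (by linarith))
  have hn2 : C * e * Real.sqrt 2 ^ n ≤ 1.415 * M := by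
    calc C * e * Real.sqrt 2 ^ n ≤ C * e * (1.415 * s) := mul_le_mul_of_nonneg_left hn hce
      _ = 1.415 * (C * e * s) := by ring
      _ ≤ 1.415 * M := by linarith
  have hup := chain_up hX hom hO hC he hy₀ hx₀ hr hG (n := n) (by linarith) (by
    have : 6 * C * e * Real.sqrt 2 ^ n = 6 * (C * e * Real.sqrt 2 ^ n) := by ring
    rw [this]; linarith)
  obtain ⟨u1, u2⟩ := hup
  have u1n := u1 n le_rfl
  have e15 : 15 * C * e * Real.sqrt 2 ^ n = 15 * (C * e * Real.sqrt 2 ^ n) := by ring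
  have e6 : 6 * C * e * Real.sqrt 2 ^ n = 6 * (C * e * Real.sqrt 2 ^ n) := by ring
  rw [e15] at u2
  rw [e6] at u1n
  set T := 2 ^ n * r₀ with hT
  set T' := 2 ^ j * h with hT'
  -- over
  have hTp : 0 < T := by positivity
  have hXT : 2 * T ≤ X * T := mul_le_mul_of_nonneg_right hX hTp.le
  have hoT : om * T ≤ 1 / 2 * T := mul_le_mul_of_nonneg_right hom hTp.le
  have hTT : dist (L (pt y₀ x₀ T)) (L (pt y x T')) ≤ 9 * M := by
    refine (hO y₀ x₀ T hy₀ hx₀ hTp (by linarith) (by linarith) _ (pt_self hX hom hTp) _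
      ?_).trans (by linarith)
    refine pt_mem_Pc ?_ ?_ ?_ ?_
    · linarith
    · linarith
    · linarith
    · linarith
  -- down
  have hdown : dist (L (pt y x h)) (L (pt y x T')) ≤ 8 * M :=
    chain_down hX hom hO hM0 (by linarith) hy hx hh (j := j)
      (fun i hi => by have := j3 i hi; linarith)
      (fun i hi => down_bd hC he hr hG hy hx hh hR hR8 (j3 i hi))
  calc dist (L (pt y₀ x₀ r₀)) (L (pt y x h)) ≤ dist (L (pt y₀ x₀ r₀)) (L (pt y₀ x₀ T)) +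
        dist (L (pt y₀ x₀ T)) (L (pt y x h)) := dist_triangle _ _ _
    _ ≤ dist (L (pt y₀ x₀ r₀)) (L (pt y₀ x₀ T)) + (dist (L (pt y₀ x₀ T)) (L (pt y x T')) +
        dist (L (pt y x T')) (L (pt y x h))) := by
          gcongr; exact dist_triangle _ _ _
    _ ≤ 15 * (1.415 * M) + (9 * M + 8 * M) := by
          rw [dist_comm (L (pt y x T')) (L (pt y x h))]
          refine add_le_add (u2.trans ?_) (add_le_add hTT hdown)
          linarith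
    _ ≤ 39 * M := by linarith
    _ ≤ _ := by linarith

end

end Vale.Agent.P097.H845.St
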