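import Mathlib
import Vale.Agent.P097.H845.St.Chain

/-!
# P097 / block (T) in straight coordinates: chains of windows, general ranges

Apexes `|y|, |x| ≤ a`, depths `ρ ≤ β`; size function `ez`, near maximality downwards `(H)`.
-/

set_option linter.all false

open Complex Metric Set Filter Topology

namespace Vale.Agent.P097.H845.StP

open Vale.Agent.P097.H845.St (pt Pc pt_mem_Pc pt_self pt_double sqrt_two_pow sq2_lo sq2_hi geo_up
  geo_down exists_top)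

section

variable {E : Type*} [PseudoMetricSpace E] {L : ℂ × ℂ → E} {X om a β : ℝ} {Ev : ℝ → ℝ → ℝ → ℝ}

/-- the size function controls the oscillation of `L` on the pieces, as long as it is `< 1` -/
def Osc (a β : ℝ) (L : ℂ × ℂ → E) (X om : ℝ) (Ev : ℝ → ℝ → ℝ → ℝ) : Prop :=
  ∀ y x ρ : ℝ, |y| ≤ a → |x| ≤ a → 0 < ρ → ρ ≤ β → Ev y x ρ < 1 →
    ∀ u ∈ Pc X om y x ρ, ∀ v ∈ Pc X om y x ρ, dist (L u) (L v) ≤ Ev y x ρ

/-- (G) at the pick `(y₀, x₀, r₀)` -/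
def Gd (a β : ℝ) (Ev : ℝ → ℝ → ℝ → ℝ) (C e y₀ x₀ r₀ : ℝ) : Prop :=
  ∀ y x ρ : ℝ, |y| ≤ a → |x| ≤ a → 0 < ρ → ρ ≤ β →
    Ev y x ρ ≤ C * e * Real.sqrt ((|y - y₀| + |x - x₀| + ρ + r₀) / r₀) *
      ((|y - y₀| + |x - x₀| + ρ + r₀) / ρ) ^ 2

/-- vertical chain over the pick -/
theorem chain_up (hX : 2 ≤ X) (hom : om ≤ 1 / 2) (hO : Osc a β L X om Ev) {C e y₀ x₀ r₀ : ℝ}
    (hC : 0 ≤ C) (he : 0 ≤ e) (hy : |y₀| ≤ a) (hx : |x₀| ≤ a) (hr : 0 < r₀)
    (hG : Gd a β Ev C e y₀ x₀ r₀) {n : ℕ} (hn : 2 ^ n * r₀ ≤ β)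
    (hsm : 6 * C * e * Real.sqrt 2 ^ n < 1) :
    (∀ i ≤ n, Ev y₀ x₀ (2 ^ i * r₀) ≤ 6 * C * e * Real.sqrt 2 ^ i) ∧
      dist (L (pt y₀ x₀ r₀)) (L (pt y₀ x₀ (2 ^ n * r₀))) ≤ 15 * C * e * Real.sqrt 2 ^ n := by
  have hpow : ∀ i ≤ n, (2 : ℝ) ^ i * r₀ ≤ β := fun i hi =>
    (mul_le_mul_of_nonneg_right (pow_le_pow_right₀ one_le_two hi) hr.le).trans hn
  have hE : ∀ i ≤ n, Ev y₀ x₀ (2 ^ i * r₀) ≤ 6 * C * e * Real.sqrt 2 ^ i := by
    intro i hi
    have h2 : (1 : ℝ) ≤ 2 ^ i := one_le_pow₀ one_le_two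
    have hp : 0 < (2 : ℝ) ^ i * r₀ := by positivity
    have h1 := hG y₀ x₀ (2 ^ i * r₀) hy hx hp (hpow i hi)
    refine h1.trans ?_
    simp only [sub_self, abs_zero, zero_add]
    have hD : 2 ^ i * r₀ + r₀ ≤ 2 * (2 ^ i * r₀) := by nlinarith
    have e1 : Real.sqrt ((2 ^ i * r₀ + r₀) / r₀) ≤ Real.sqrt 2 * Real.sqrt 2 ^ i := by
      rw [← sqrt_two_pow i, ← Real.sqrt_mul (by norm_num)]
      refine Real.sqrt_le_sqrt ?_
      rw [div_le_iff₀ hr]; linarith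
    have e2 : ((2 ^ i * r₀ + r₀) / (2 ^ i * r₀)) ^ 2 ≤ 4 := by
      have : (2 ^ i * r₀ + r₀) / (2 ^ i * r₀) ≤ 2 := by rw [div_le_iff₀ hp]; exact hD
      have h0 : 0 ≤ (2 ^ i * r₀ + r₀) / (2 ^ i * r₀) := by positivity
      nlinarith
    have hce : 0 ≤ C * e := mul_nonneg hC he
    calc C * e * Real.sqrt ((2 ^ i * r₀ + r₀) / r₀) * ((2 ^ i * r₀ + r₀) / (2 ^ i * r₀)) ^ 2
        ≤ C * e * (Real.sqrt 2 * Real.sqrt 2 ^ i) * 4 := by
          refine mul_le_mul (mul_le_mul_of_nonneg_left e1 hce) e2 (by positivity) (by positivity)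
      _ = C * e * Real.sqrt 2 ^ i * (4 * Real.sqrt 2) := by ring
      _ ≤ C * e * Real.sqrt 2 ^ i * 6 := by
          refine mul_le_mul_of_nonneg_left ?_ (by positivity)
          have := sq2_hi; linarith
      _ = _ := by ring
  refine ⟨hE, ?_⟩
  have hmono : ∀ i ≤ n, 6 * C * e * Real.sqrt 2 ^ i < 1 := by
    intro i hi
    have h1 : (1 : ℝ) ≤ Real.sqrt 2 := by have := sq2_lo; linarith
    have h2 : Real.sqrt 2 ^ i ≤ Real.sqrt 2 ^ n := pow_le_pow_right₀ h1 hi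
    have hce : 0 ≤ 6 * C * e := by positivity
    exact (mul_le_mul_of_nonneg_left h2 hce).trans_lt hsm
  have h1 := dist_le_range_sum_of_dist_le (f := fun i : ℕ => L (pt y₀ x₀ (2 ^ i * r₀))) n
    (d := fun i => 6 * C * e * Real.sqrt 2 ^ i) (by
      intro i hi
      have hp : 0 < (2 : ℝ) ^ i * r₀ := by positivity
      have hEi := hE i hi.le
      refine (hO y₀ x₀ (2 ^ i * r₀) hy hx hp (hpow i hi.le) (hEi.trans_lt (hmono i hi.le)) _ ?_ _
        ?_).trans hEi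
      · exact pt_self hX hom hp
      · rw [pow_succ', mul_assoc]
        exact pt_double hX hom hp)
  have h2 : ∑ i ∈ Finset.range n, 6 * C * e * Real.sqrt 2 ^ i ≤ 15 * C * e * Real.sqrt 2 ^ n := by
    rw [← Finset.mul_sum]
    have := geo_up n
    have hce : 0 ≤ 6 * C * e := by positivity
    calc 6 * C * e * ∑ i ∈ Finset.range n, Real.sqrt 2 ^ i ≤ 6 * C * e * (5 / 2 * Real.sqrt 2 ^ n) :=
        mul_le_mul_of_nonneg_left this hce
      _ = _ := by ring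
  have h3 : dist (L (pt y₀ x₀ (2 ^ 0 * r₀))) (L (pt y₀ x₀ (2 ^ n * r₀))) ≤
      ∑ i ∈ Finset.range n, 6 * C * e * Real.sqrt 2 ^ i := h1
  rw [pow_zero, one_mul] at h3
  exact h3.trans h2

/-- the downward chain over another apex -/
theorem chain_down (hX : 2 ≤ X) (hom : om ≤ 1 / 2) (hO : Osc a β L X om Ev) {y x h M : ℝ}
    (hM : 0 ≤ M) (hM1 : 6 * M < 1) (hy : |y| ≤ a) (hx : |x| ≤ a) (hh : 0 < h) {j : ℕ}
    (hj : ∀ i < j, 2 ^ i * h ≤ β) (hE : ∀ i < j, Ev y x (2 ^ i * h) ≤ 6 * M * (1 / 4) ^ i) :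
    dist (L (pt y x h)) (L (pt y x (2 ^ j * h))) ≤ 8 * M := by
  have h1 := dist_le_range_sum_of_dist_le (f := fun i : ℕ => L (pt y x (2 ^ i * h))) j
    (d := fun i => 6 * M * (1 / 4) ^ i) (by
      intro i hi
      have hp : 0 < (2 : ℝ) ^ i * h := by positivity
      have hEi := hE i hi
      have h4 : ((1 : ℝ) / 4) ^ i ≤ 1 := pow_le_one₀ (by norm_num) (by norm_num)
      have h5 : 6 * M * (1 / 4) ^ i ≤ 6 * M * 1 := mul_le_mul_of_nonneg_left h4 (by positivity)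
      refine (hO y x (2 ^ i * h) hy hx hp (hj i hi) (by linarith) _ ?_ _ ?_).trans hEi
      · exact pt_self hX hom hp
      · rw [pow_succ', mul_assoc]
        exact pt_double hX hom hp)
  have h3 : dist (L (pt y x (2 ^ 0 * h))) (L (pt y x (2 ^ j * h))) ≤
      ∑ i ∈ Finset.range j, 6 * M * (1 / 4) ^ i := h1
  rw [pow_zero, one_mul, ← Finset.mul_sum] at h3
  refine h3.trans ?_
  have h6 := geo_down j
  calc 6 * M * ∑ i ∈ Finset.range j, ((1 : ℝ) / 4) ^ i ≤ 6 * M * (4 / 3) :=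
      mul_le_mul_of_nonneg_left h6 (by positivity)
    _ = _ := by ring

/-- size bound on the downward chain -/
theorem down_bd {C e y₀ x₀ r₀ : ℝ} (hC : 0 ≤ C) (he : 0 ≤ e) (hr : 0 < r₀)
    (hG : Gd a β Ev C e y₀ x₀ r₀) {y x h R : ℝ} (hy : |y| ≤ a) (hx : |x| ≤ a)
    (hh : 0 < h) (hR : |y - y₀| + |x - x₀| + h + r₀ ≤ R) (hR8 : 2 * R ≤ β) {i : ℕ}
    (hi : 2 ^ i * h < R) :
    Ev y x (2 ^ i * h) ≤ 6 * (C * e * (Real.sqrt (R / r₀) * (R / h) ^ 2)) * (1 / 4) ^ i := by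
  have ha : 0 ≤ |y - y₀| := abs_nonneg _
  have hb : 0 ≤ |x - x₀| := abs_nonneg _
  have hce : 0 ≤ C * e := mul_nonneg hC he
  have hp : 0 < (2 : ℝ) ^ i * h := by positivity
  have h1 := hG y x (2 ^ i * h) hy hx hp (by linarith)
  refine h1.trans ?_
  set D := |y - y₀| + |x - x₀| + 2 ^ i * h + r₀ with hD
  have hD2 : D ≤ 2 * R := by rw [hD]; linarith
  have hD0 : 0 < D := by rw [hD]; linarith
  set s := Real.sqrt (R / r₀) with hs
  have hs0 : 0 ≤ s := Real.sqrt_nonneg _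
  have e1 : Real.sqrt (D / r₀) ≤ Real.sqrt 2 * s := by
    rw [hs, ← Real.sqrt_mul (by norm_num)]
    refine Real.sqrt_le_sqrt ?_
    rw [mul_div_assoc', div_le_div_iff_of_pos_right hr]; exact hD2
  have e2 : (D / (2 ^ i * h)) ^ 2 ≤ 4 * (R / h) ^ 2 * (1 / 4) ^ i := by
    have e3 : D / (2 ^ i * h) ≤ 2 * R / (2 ^ i * h) := by
      rw [div_le_div_iff_of_pos_right hp]; exact hD2
    have e4 : 0 ≤ D / (2 ^ i * h) := by positivity
    have e5 : (D / (2 ^ i * h)) ^ 2 ≤ (2 * R / (2 ^ i * h)) ^ 2 := pow_le_pow_left₀ e4 e3 2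
    refine e5.trans (le_of_eq ?_)
    have e6 : ((1 : ℝ) / 4) ^ i = ((2 : ℝ) ^ i)⁻¹ ^ 2 := by
      rw [← inv_pow, ← pow_mul, mul_comm i 2, pow_mul]
      norm_num
    rw [e6]
    field_simp
    ring
  have hB0 : 0 ≤ s * (R / h) ^ 2 := by positivity
  calc C * e * Real.sqrt (D / r₀) * (D / (2 ^ i * h)) ^ 2 ≤
      C * e * (Real.sqrt 2 * s) * (4 * (R / h) ^ 2 * (1 / 4) ^ i) :=
        mul_le_mul (mul_le_mul_of_nonneg_left e1 hce) e2 (by positivity) (by positivity)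
    _ = C * e * (s * (R / h) ^ 2) * (1 / 4) ^ i * (4 * Real.sqrt 2) := by ring
    _ ≤ C * e * (s * (R / h) ^ 2) * (1 / 4) ^ i * 6 := by
        refine mul_le_mul_of_nonneg_left ?_ (by positivity)
        have := sq2_hi; linarith
    _ = _ := by ring

/-- **the chain**: up, over, down -/
theorem chain (hX : 2 ≤ X) (hom0 : 0 ≤ om) (hom : om ≤ 1 / 2) (hO : Osc a β L X om Ev)
    {C e y₀ x₀ r₀ : ℝ} (hC : 0 ≤ C) (he : 0 ≤ e) (hy₀ : |y₀| ≤ a) (hx₀ : |x₀| ≤ a)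
    (hr : 0 < r₀) (hG : Gd a β Ev C e y₀ x₀ r₀) {y x h R : ℝ} (hy : |y| ≤ a) (hx : |x| ≤ a)
    (hh : 0 < h) (hR : |y - y₀| + |x - x₀| + h + r₀ ≤ R) (hR8 : 2 * R ≤ β)
    (hsm : 40 * (C * e * (Real.sqrt (R / r₀) * (R / h) ^ 2)) < 1) :
    dist (L (pt y₀ x₀ r₀)) (L (pt y x h)) ≤
      40 * (C * e * (Real.sqrt (R / r₀) * (R / h) ^ 2)) := by
  have ha : 0 ≤ |y - y₀| := abs_nonneg _
  have hb : 0 ≤ |x - x₀| := abs_nonneg _
  have hR0 : 0 < R := by linarith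
  have hrR : r₀ ≤ R := by linarith
  have hhR : h ≤ R := by linarith
  have hce : 0 ≤ C * e := mul_nonneg hC he
  set s := Real.sqrt (R / r₀) with hs
  have hs1 : 1 ≤ s := by
    rw [hs, Real.one_le_sqrt, le_div_iff₀ hr]; linarith
  have hRh : 1 ≤ R / h := by rw [le_div_iff₀ hh]; linarith
  have hRh2 : 1 ≤ (R / h) ^ 2 := one_le_pow₀ hRh
  set M := C * e * (s * (R / h) ^ 2) with hM
  have hM0 : 0 ≤ M := by positivity
  -- `C e s ≤ M`
  have hsM : C * e * s ≤ M := by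
    have : s * 1 ≤ s * (R / h) ^ 2 := mul_le_mul_of_nonneg_left hRh2 (by linarith)
    rw [hM]
    refine mul_le_mul_of_nonneg_left ?_ hce
    linarith
  have hces : 0 ≤ C * e * s := by positivity
  obtain ⟨n, n1, n2, n3⟩ := exists_top hr hrR
  obtain ⟨j, j1, j2, j3⟩ := exists_top hh hhR
  -- `√2 ^ n ≤ √2 s`
  have hn : Real.sqrt 2 ^ n ≤ 1.415 * s := by
    have h1 : Real.sqrt 2 ^ n ≤ Real.sqrt 2 * s := by
      rw [← sqrt_two_pow n, hs, ← Real.sqrt_mul (by norm_num)]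
      refine Real.sqrt_le_sqrt ?_
      rw [mul_div_assoc', le_div_iff₀ hr]
      exact n2.le
    exact h1.trans (mul_le_mul_of_nonneg_right sq2_hi (by linarith))
  have hn2 : C * e * Real.sqrt 2 ^ n ≤ 1.415 * M := by
    calc C * e * Real.sqrt 2 ^ n ≤ C * e * (1.415 * s) := mul_le_mul_of_nonneg_left hn hce
      _ = 1.415 * (C * e * s) := by ring
      _ ≤ 1.415 * M := by linarith
  have hup := chain_up hX hom hO hC he hy₀ hx₀ hr hG (n := n) (by linarith) (by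
    have : 6 * C * e * Real.sqrt 2 ^ n = 6 * (C * e * Real.sqrt 2 ^ n) := by ring
    rw [this]; linarith)
  obtain ⟨u1, u2⟩ := hup
  have u1n := u1 n le_rfl
  have e15 : 15 * C * e * Real.sqrt 2 ^ n = 15 * (C * e * Real.sqrt 2 ^ n) := by ring
  have e6 : 6 * C * e * Real.sqrt 2 ^ n = 6 * (C * e * Real.sqrt 2 ^ n) := by ring
  rw [e15] at u2
  rw [e6] at u1n
  set T := 2 ^ n * r₀ with hT
  set T' := 2 ^ j * h with hT'
  -- over
  have hTp : 0 < T := by positivity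
  have hXT : 2 * T ≤ X * T := mul_le_mul_of_nonneg_right hX hTp.le
  have hoT : om * T ≤ 1 / 2 * T := mul_le_mul_of_nonneg_right hom hTp.le
  have hTT : dist (L (pt y₀ x₀ T)) (L (pt y x T')) ≤ 9 * M := by
    refine (hO y₀ x₀ T hy₀ hx₀ hTp (by linarith) (by linarith) _ (pt_self hX hom hTp) _
      ?_).trans (by linarith)
    refine pt_mem_Pc ?_ ?_ ?_ ?_
    · linarith
    · linarith
    · linarith
    · linarith
  -- down
  have hdown : dist (L (pt y x h)) (L (pt y x T')) ≤ 8 * M :=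
    chain_down hX hom hO hM0 (by linarith) hy hx hh (j := j)
      (fun i hi => by have := j3 i hi; linarith)
      (fun i hi => down_bd hC he hr hG hy hx hh hR hR8 (j3 i hi))
  calc dist (L (pt y₀ x₀ r₀)) (L (pt y x h)) ≤ dist (L (pt y₀ x₀ r₀)) (L (pt y₀ x₀ T)) +
        dist (L (pt y₀ x₀ T)) (L (pt y x h)) := dist_triangle _ _ _
    _ ≤ dist (L (pt y₀ x₀ r₀)) (L (pt y₀ x₀ T)) + (dist (L (pt y₀ x₀ T)) (L (pt y x T')) +
        dist (L (pt y x T')) (L (pt y x h))) := by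
          gcongr; exact dist_triangle _ _ _
    _ ≤ 15 * (1.415 * M) + (9 * M + 8 * M) := by
          rw [dist_comm (L (pt y x T')) (L (pt y x h))]
          refine add_le_add (u2.trans ?_) (add_le_add hTT hdown)
          linarith
    _ ≤ 39 * M := by linarith
    _ ≤ _ := by linarith

/-! ### (H): the ancestors -/

/-- vertical chain with decay: `Ev y₀ x₀ h ≤ M (r₀ / h) ^ 2` for `r₀ ≤ h ≤ D` -/
theorem chain_H (hX : 2 ≤ X) (hom : om ≤ 1 / 2) (hO : Osc a β L X om Ev) {M y₀ x₀ r₀ D : ℝ}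
    (hM : 0 ≤ M) (hy : |y₀| ≤ a) (hx : |x₀| ≤ a) (hr : 0 < r₀) (hD : D ≤ β)
    (hH : ∀ h : ℝ, r₀ ≤ h → h ≤ D → Ev y₀ x₀ h ≤ M * (r₀ / h) ^ 2) {h h' : ℝ} (h1 : r₀ ≤ h)
    (h2 : h ≤ h') (h3 : h' ≤ D) (hsm : M * (r₀ / h) ^ 2 < 1) :
    dist (L (pt y₀ x₀ h)) (L (pt y₀ x₀ h')) ≤ 7 / 3 * (M * (r₀ / h) ^ 2) := by
  have hh : 0 < h := hr.trans_le h1
  obtain ⟨j, j1, j2, j3⟩ := exists_top hh h2
  set N := M * (r₀ / h) ^ 2 with hN
  have hN0 : 0 ≤ N := by positivity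
  have hE : ∀ i : ℕ, 2 ^ i * h ≤ D → Ev y₀ x₀ (2 ^ i * h) ≤ N * (1 / 4) ^ i := by
    intro i hi
    have h4 : (1 : ℝ) ≤ 2 ^ i := one_le_pow₀ one_le_two
    have h5 : r₀ ≤ 2 ^ i * h := by nlinarith
    refine (hH _ h5 hi).trans (le_of_eq ?_)
    have e6 : ((1 : ℝ) / 4) ^ i = ((2 : ℝ) ^ i)⁻¹ ^ 2 := by
      rw [← inv_pow, ← pow_mul, mul_comm i 2, pow_mul]
      norm_num
    rw [hN, e6]
    field_simp
  have hq : ∀ i : ℕ, N * ((1 : ℝ) / 4) ^ i ≤ N := by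
    intro i
    have h4 : ((1 : ℝ) / 4) ^ i ≤ 1 := pow_le_one₀ (by norm_num) (by norm_num)
    calc N * ((1 : ℝ) / 4) ^ i ≤ N * 1 := mul_le_mul_of_nonneg_left h4 hN0
      _ = N := mul_one _
  -- the last full step below `h'`
  rcases Nat.eq_zero_or_pos j with hj0 | hj0
  · -- `h' ≤ h`
    subst hj0
    rw [pow_zero, one_mul] at j1
    have : h = h' := le_antisymm h2 j1
    subst this
    rw [dist_self]
    positivity
  · have hstep : ∀ i, i < j → 2 ^ i * h < h' := j3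
    have h4 := dist_le_range_sum_of_dist_le (f := fun i : ℕ => L (pt y₀ x₀ (2 ^ i * h))) (j - 1)
      (d := fun i => N * (1 / 4) ^ i) (by
        intro i hi
        have hij : i < j := by omega
        have hp : 0 < (2 : ℝ) ^ i * h := by positivity
        have h5 := hstep i hij
        have hEi := hE i (by linarith)
        refine (hO y₀ x₀ (2 ^ i * h) hy hx hp (by linarith) (by have := hq i; linarith) _ ?_ _
          ?_).trans hEi
        · exact pt_self hX hom hp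
        · rw [pow_succ', mul_assoc]
          exact pt_double hX hom hp)
    have h6 : dist (L (pt y₀ x₀ (2 ^ 0 * h))) (L (pt y₀ x₀ (2 ^ (j - 1) * h))) ≤
        ∑ i ∈ Finset.range (j - 1), N * (1 / 4) ^ i := h4
    rw [pow_zero, one_mul, ← Finset.mul_sum] at h6
    have h7 : N * ∑ i ∈ Finset.range (j - 1), ((1 : ℝ) / 4) ^ i ≤ N * (4 / 3) :=
      mul_le_mul_of_nonneg_left (geo_down _) hN0
    -- last step
    set T := 2 ^ (j - 1) * h with hT
    have hTp : 0 < T := by positivity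
    have hT1 : T < h' := hstep (j - 1) (by omega)
    have hT2 : h' ≤ 2 * T := by
      have e : (2 : ℝ) ^ j = 2 * 2 ^ (j - 1) := by
        rw [← pow_succ', Nat.sub_add_cancel hj0]
      rw [e, mul_assoc] at j1
      exact j1
    have hXT : 2 * T ≤ X * T := mul_le_mul_of_nonneg_right hX hTp.le
    have hoT : om * T ≤ 1 / 2 * T := mul_le_mul_of_nonneg_right hom hTp.le
    have hEl := hE (j - 1) (by linarith)
    have h8 : dist (L (pt y₀ x₀ T)) (L (pt y₀ x₀ h')) ≤ N := by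
      refine ((hO y₀ x₀ T hy hx hTp (by linarith) (by have := hq (j - 1); linarith) _
        (pt_self hX hom hTp) _ ?_).trans hEl).trans (hq _)
      refine pt_mem_Pc ?_ ?_ ?_ ?_
      · rw [sub_self, abs_zero]; linarith
      · rw [sub_self, abs_zero]; linarith
      · linarith
      · linarith
    calc dist (L (pt y₀ x₀ h)) (L (pt y₀ x₀ h')) ≤ dist (L (pt y₀ x₀ h)) (L (pt y₀ x₀ T)) +
          dist (L (pt y₀ x₀ T)) (L (pt y₀ x₀ h')) := dist_triangle _ _ _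
      _ ≤ N * (4 / 3) + N := add_le_add (h6.trans h7) h8
      _ = _ := by ring

/-! ### the size function -/

theorem isCompact_Pc (X om y x ρ : ℝ) : IsCompact (Pc X om y x ρ) := by
  refine Metric.isCompact_of_isClosed_isBounded ?_ ?_
  · have e1 : IsClosed {z : ℂ × ℂ | |z.1.re - y| ≤ X * ρ} :=
      isClosed_le (by fun_prop) continuous_const
    have e2 : IsClosed {z : ℂ × ℂ | |z.2.re - x| ≤ X * ρ} :=
      isClosed_le (by fun_prop) continuous_const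
    have c1 : Continuous fun z : ℂ × ℂ => z.1.im := continuous_im.comp continuous_fst
    have c2 : Continuous fun z : ℂ × ℂ => z.2.im := continuous_im.comp continuous_snd
    have e3 : IsClosed {z : ℂ × ℂ | om * ρ ≤ -z.1.im} := isClosed_le continuous_const c1.neg
    have e4 : IsClosed {z : ℂ × ℂ | -z.1.im ≤ X * ρ} := isClosed_le c1.neg continuous_const
    have e5 : IsClosed {z : ℂ × ℂ | om * ρ ≤ z.2.im} := isClosed_le continuous_const c2
    have e6 : IsClosed {z : ℂ × ℂ | z.2.im ≤ X * ρ} := isClosed_le c2 continuous_const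
    exact e1.inter (e2.inter (e3.inter (e4.inter (e5.inter e6))))
  · refine (isBounded_closedBall (x := (((y : ℂ), (x : ℂ)) : ℂ × ℂ))
      (r := X * ρ + (|X * ρ| + |om * ρ|))).subset ?_
    rintro z ⟨h1, h2, h3, h4, h5, h6⟩
    have a1 := le_abs_self (X * ρ)
    have a2 := neg_abs_le (X * ρ)
    have a3 := le_abs_self (om * ρ)
    have a4 := neg_abs_le (om * ρ)
    rw [mem_closedBall, Prod.dist_eq]
    refine max_le ?_ ?_
    · rw [dist_eq_norm]
      refine (Complex.norm_le_abs_re_add_abs_im _).trans ?_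
      simp only [sub_re, ofReal_re, sub_im, ofReal_im, sub_zero]
      have : |z.1.im| ≤ |X * ρ| + |om * ρ| := by
        rw [abs_le]; constructor <;> linarith [abs_nonneg (X * ρ), abs_nonneg (om * ρ)]
      linarith
    · rw [dist_eq_norm]
      refine (Complex.norm_le_abs_re_add_abs_im _).trans ?_
      simp only [sub_re, ofReal_re, sub_im, ofReal_im, sub_zero]
      have : |z.2.im| ≤ |X * ρ| + |om * ρ| := by
        rw [abs_le]; constructor <;> linarith [abs_nonneg (X * ρ), abs_nonneg (om * ρ)]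
      linarith

/-- size of a window -/
noncomputable def ez (L : ℂ × ℂ → E) (X om y x ρ : ℝ) : ℝ :=
  min 1 (Metric.diam (L '' Pc X om y x ρ))

theorem ez_nonneg (L : ℂ × ℂ → E) (X om y x ρ : ℝ) : 0 ≤ ez L X om y x ρ :=
  le_min zero_le_one Metric.diam_nonneg

theorem ez_le_one (L : ℂ × ℂ → E) (X om y x ρ : ℝ) : ez L X om y x ρ ≤ 1 := min_le_left _ _

theorem bdd_Pc {V : Set (ℂ × ℂ)} (hV : ContinuousOn L V) {y x ρ : ℝ} (hs : Pc X om y x ρ ⊆ V) :
    Bornology.IsBounded (L '' Pc X om y x ρ) :=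
  ((isCompact_Pc X om y x ρ).image_of_continuousOn (hV.mono hs)).isBounded

theorem osc_ez {V : Set (ℂ × ℂ)} (hV : ContinuousOn L V)
    (hs : ∀ y x ρ : ℝ, |y| ≤ a → |x| ≤ a → 0 < ρ → ρ ≤ β → Pc X om y x ρ ⊆ V) :
    Osc a β L X om (ez L X om) := by
  intro y x ρ hy hx hρ hρ' hlt u hu v hv
  have h1 : ez L X om y x ρ = Metric.diam (L '' Pc X om y x ρ) := by
    rcases min_choice (1 : ℝ) (Metric.diam (L '' Pc X om y x ρ)) with h | h
    · exfalso
      have h2 : ez L X om y x ρ = 1 := h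
      linarith
    · exact h
  rw [h1]
  exact Metric.dist_le_diam_of_mem (bdd_Pc hV (hs y x ρ hy hx hρ hρ')) (mem_image_of_mem L hu)
    (mem_image_of_mem L hv)

/-- two points of the piece realise half of the size (points of the oscillation) -/
theorem exists_osc {V : Set (ℂ × ℂ)} (hV : ContinuousOn L V) {y x ρ : ℝ}
    (hs : Pc X om y x ρ ⊆ V) (hpos : 0 < ez L X om y x ρ) :
    ∃ u ∈ Pc X om y x ρ, ∃ v ∈ Pc X om y x ρ, ez L X om y x ρ / 2 < dist (L u) (L v) := by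
  by_contra hcon
  push Not at hcon
  have h1 : Metric.diam (L '' Pc X om y x ρ) ≤ ez L X om y x ρ / 2 := by
    refine Metric.diam_le_of_forall_dist_le (by linarith) ?_
    rintro _ ⟨u, hu, rfl⟩ _ ⟨v, hv, rfl⟩
    exact hcon u hu v hv
  have h2 : ez L X om y x ρ ≤ Metric.diam (L '' Pc X om y x ρ) := min_le_right _ _
  linarith

/-- the pieces lie in a box -/
theorem Pc_sub {y x ρ : ℝ} (hom : 0 < om) (hy : |y| ≤ a) (hx : |x| ≤ a) (hρ : 0 < ρ) (hρ' : ρ ≤ β)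
    (hX : 0 ≤ X) {B : ℝ} (hB : a + X * β < B) (ha : 0 ≤ a) :
    Pc X om y x ρ ⊆ {z | |z.1.re| < B ∧ |z.1.im| < B ∧ |z.2.re| < B ∧ |z.2.im| < B} ∩
      {z | z.1.im < 0 ∧ 0 < z.2.im} := by
  rintro z ⟨h1, h2, h3, h4, h5, h6⟩
  have hXρ : X * ρ ≤ X * β := mul_le_mul_of_nonneg_left hρ' hX
  have h7 : 0 < om * ρ := mul_pos hom hρ
  have e1 : |z.1.re| ≤ |z.1.re - y| + |y| := by
    calc |z.1.re| = |(z.1.re - y) + y| := by congr 1; ring
      _ ≤ _ := abs_add_le _ _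
  have e2 : |z.2.re| ≤ |z.2.re - x| + |x| := by
    calc |z.2.re| = |(z.2.re - x) + x| := by congr 1; ring
      _ ≤ _ := abs_add_le _ _
  refine ⟨⟨by linarith, ?_, by linarith, ?_⟩, by linarith, by linarith⟩
  · rw [abs_lt]; constructor <;> linarith
  · rw [abs_lt]; constructor <;> linarith

end

end Vale.Agent.P097.H845.StP
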