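import Mathlib
import Vale.Agent.P097.H845.St.ChainP
import Vale.Agent.P097.H509.St.Defs

/-!
# P097 / block (T): the chains in the straight world of helper226, literal forms of H509/St/Defs
-/

set_option linter.all false

open Complex Metric Set Filter Topology

namespace Vale.Agent.P097.H845.StP

open Vale.Agent.P097.TC Vale.Agent.P097.H226.W Vale.Agent.P097.H509.St
open Vale.Agent.P097.H845.St (pt Pc)

variable {Λ b δ : ℝ} {F q : ℂ → ℂ} {al p th : ℂ × ℂ → ℂ} {X om : ℝ}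

theorem Es_eq (L : ℂ × ℂ → ℂ × ℂ) (X om y x ρ : ℝ) : Es L X om y x ρ = ez L X om y x ρ := rfl

theorem gd_of_gg {L : ℂ × ℂ → ℂ × ℂ} {C₀ E₀ y₀ x₀ r : ℝ} (h : GG L X om C₀ E₀ y₀ x₀ r) :
    Gd (1 / 4) (1 / (4 * X)) (Es L X om) C₀ E₀ y₀ x₀ r := h

/-- the pieces of the class lie in the base quadrant, well inside the box -/
theorem Pc_class (hX : 2 ≤ X) (hom : 0 < om) {y x ρ : ℝ} (hy : |y| ≤ 1 / 4) (hx : |x| ≤ 1 / 4)
    (hρ : 0 < ρ) (hρ' : ρ ≤ 1 / (4 * X)) : Pc X om y x ρ ⊆ Bx 1 ∩ Qu := by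
  have hX0 : 0 < X := by linarith
  refine Pc_sub (a := 1 / 4) (β := 1 / (4 * X)) hom hy hx hρ hρ' hX0.le (B := 1) ?_ (by norm_num)
  have : X * (1 / (4 * X)) = 1 / 4 := by field_simp
  rw [this]; norm_num

theorem cont_LL (W : SW Λ b F q δ 1 al p th) : ContinuousOn (LL al p) (Bx 1 ∩ Qu) := by
  have hs : Bx 1 ∩ Qu ⊆ Bx 1 ∩ Wd δ := by
    rintro z ⟨h1, h2, h3⟩
    exact ⟨h1, h3, h2.trans (mul_pos W.δ0 h3)⟩
  exact (W.dal.continuousOn.mono hs).prodMk (W.dp.continuousOn.mono hs)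

/-- the sizes control the line on the pieces -/
theorem osc_sw (W : SW Λ b F q δ 1 al p th) (hX : 2 ≤ X) (hom : 0 < om) :
    Osc (1 / 4) (1 / (4 * X)) (LL al p) X om (Es (LL al p) X om) :=
  osc_ez (cont_LL W) fun y x ρ hy hx hρ hρ' => Pc_class hX hom hy hx hρ hρ'

/-- **near bound**: chain from the pick to the window `(y, x, h)` at distance `R` -/
theorem near_sw (W : SW Λ b F q δ 1 al p th) (hX : 2 ≤ X) (hom : 0 < om) (hom2 : om ≤ 1 / 2)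
    {C₀ E₀ y₀ x₀ r : ℝ} (hC : 0 ≤ C₀) (hE : 0 ≤ E₀) (hy₀ : |y₀| ≤ 1 / 4) (hx₀ : |x₀| ≤ 1 / 4)
    (hr : 0 < r) (hG : GG (LL al p) X om C₀ E₀ y₀ x₀ r) {y x h R : ℝ} (hy : |y| ≤ 1 / 4)
    (hx : |x| ≤ 1 / 4) (hh : 0 < h) (hR : |y - y₀| + |x - x₀| + h + r ≤ R)
    (hR8 : 2 * R ≤ 1 / (4 * X))
    (hsm : 40 * (C₀ * E₀ * (Real.sqrt (R / r) * (R / h) ^ 2)) < 1) :
    ‖LL al p (pt y x h) - LL al p (pt y₀ x₀ r)‖ ≤
      40 * (C₀ * E₀ * (Real.sqrt (R / r) * (R / h) ^ 2)) := by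
  have := chain hX hom.le hom2 (osc_sw W hX hom) hC hE hy₀ hx₀ hr (gd_of_gg hG) hy hx hh hR hR8 hsm
  rw [dist_comm, dist_eq_norm] at this
  exact this

/-- (G) at a larger scale: `(r, E₀)` may be replaced by `(R r, √R E₀)` -/
theorem gg_scale {L : ℂ × ℂ → ℂ × ℂ} {C₀ E₀ y₀ x₀ r R : ℝ} (hC : 0 ≤ C₀) (hE : 0 ≤ E₀)
    (hr : 0 < r) (hR : 1 ≤ R) (hG : GG L X om C₀ E₀ y₀ x₀ r) :
    GG L X om C₀ (Real.sqrt R * E₀) y₀ x₀ (R * r) := by
  intro y x ρ hy hx hρ hρ'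
  refine (hG y x ρ hy hx hρ hρ').trans ?_
  have hrR : r ≤ R * r := by nlinarith
  have ha : 0 ≤ |y - y₀| := abs_nonneg _
  have hb : 0 ≤ |x - x₀| := abs_nonneg _
  have e1 : Real.sqrt ((|y - y₀| + |x - x₀| + ρ + r) / r) ≤
      Real.sqrt R * Real.sqrt ((|y - y₀| + |x - x₀| + ρ + R * r) / (R * r)) := by
    rw [← Real.sqrt_mul (by linarith)]
    refine Real.sqrt_le_sqrt ?_
    have hR0 : 0 < R := by linarith
    have : R * ((|y - y₀| + |x - x₀| + ρ + R * r) / (R * r)) =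
        (|y - y₀| + |x - x₀| + ρ + R * r) / r := by field_simp
    rw [this, div_le_div_iff_of_pos_right hr]
    linarith
  have e2 : ((|y - y₀| + |x - x₀| + ρ + r) / ρ) ^ 2 ≤
      ((|y - y₀| + |x - x₀| + ρ + R * r) / ρ) ^ 2 := by
    refine pow_le_pow_left₀ (by positivity) ?_ 2
    rw [div_le_div_iff_of_pos_right hρ]
    linarith
  have hCE : 0 ≤ C₀ * E₀ := mul_nonneg hC hE
  calc C₀ * E₀ * Real.sqrt ((|y - y₀| + |x - x₀| + ρ + r) / r) *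
        ((|y - y₀| + |x - x₀| + ρ + r) / ρ) ^ 2 ≤
      C₀ * E₀ * (Real.sqrt R * Real.sqrt ((|y - y₀| + |x - x₀| + ρ + R * r) / (R * r))) *
        ((|y - y₀| + |x - x₀| + ρ + R * r) / ρ) ^ 2 :=
        mul_le_mul (mul_le_mul_of_nonneg_left e1 hCE) e2 (by positivity) (by positivity)
    _ = _ := by ring

/-- oscillation of the pick: two points of the piece -/
theorem exists_osc_sw (W : SW Λ b F q δ 1 al p th) (hX : 2 ≤ X) (hom : 0 < om) {y x ρ : ℝ}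
    (hy : |y| ≤ 1 / 4) (hx : |x| ≤ 1 / 4) (hρ : 0 < ρ) (hρ' : ρ ≤ 1 / (4 * X))
    (hpos : 0 < Es (LL al p) X om y x ρ) :
    ∃ u ∈ Pc X om y x ρ, ∃ v ∈ Pc X om y x ρ,
      Es (LL al p) X om y x ρ / 2 < ‖LL al p u - LL al p v‖ := by
  obtain ⟨u, hu, v, hv, h⟩ := exists_osc (cont_LL W) (Pc_class hX hom hy hx hρ hρ') hpos
  rw [dist_eq_norm] at h
  exact ⟨u, hu, v, hv, h⟩

end Vale.Agent.P097.H845.StP
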